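import Mathlib

/-! Row 268 (helper30's counterexample to Abhyankar-Sathaye, idea 545): the ring identities.

`q = y² - xz`, `r = xw - yq`, `s = xw² - 2yqw + zq²`, `xs = r² - q³`,
`F = x + 2rs² - 3q²s - 3qs³`, `sF = (r+s³)² - (q+s²)³`, `F² = a x + b q`. -/

set_option autoImplicit false

namespace Crest.Agent.AbSath

section
variable {S : Type*} [CommRing S]

def qf (x y z : S) : S := y ^ 2 - x * z
def rf (x y z w : S) : S := x * w - y * qf x y z
def sf (x y z w : S) : S := x * w ^ 2 - 2 * y * qf x y z * w + z * qf x y z ^ 2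
def mf (q s : S) : S := 3 * q * s + 3 * s ^ 3
def F0 (x q r s : S) : S := x + 2 * r * s ^ 2 - 3 * q ^ 2 * s - 3 * q * s ^ 3
def af (x q r s : S) : S := x + 4 * r * s ^ 2 - 2 * q * mf q s + 4 * s ^ 5
def bf (q r s : S) : S := 4 * q ^ 2 * s ^ 4 - 4 * r * s ^ 2 * mf q s + q * mf q s ^ 2

/-- The polynomial. -/
def FF (x y z w : S) : S := F0 x (qf x y z) (rf x y z w) (sf x y z w)

theorem rel (x y z w : S) :
    x * sf x y z w = rf x y z w ^ 2 - qf x y z ^ 3 := by
  unfold sf rf qf; ring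

theorem F0_sq {x q r s : S} (h : x * s = r ^ 2 - q ^ 3) :
    af x q r s * x + bf q r s * q = F0 x q r s ^ 2 := by
  unfold af bf F0 mf
  linear_combination (4 * s ^ 4) * h

theorem sF0 {x q r s : S} (h : x * s = r ^ 2 - q ^ 3) :
    (r + s ^ 3) ^ 2 - (q + s ^ 2) ^ 3 = s * F0 x q r s := by
  unfold F0
  linear_combination -h

/-! ### the parametrisation -/

def S' (v Q R : S) : S := (R ^ 2 - Q ^ 3) * v
def q' (v Q R : S) : S := Q - S' v Q R ^ 2
def r' (v Q R : S) : S := R - S' v Q R ^ 3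
def x' (u v Q R : S) : S :=
  u - 2 * r' v Q R * S' v Q R ^ 2 + 3 * q' v Q R ^ 2 * S' v Q R + 3 * q' v Q R * S' v Q R ^ 3
def a' (u v Q R : S) : S := af (x' u v Q R) (q' v Q R) (r' v Q R) (S' v Q R) * v ^ 2
def b' (v Q R : S) : S := bf (q' v Q R) (r' v Q R) (S' v Q R) * v ^ 2

theorem F0' (u v Q R : S) : F0 (x' u v Q R) (q' v Q R) (r' v Q R) (S' v Q R) = u := by
  unfold F0 x'; ring

theorem rel' {u v Q R : S} (h : u * v = 1) :
    x' u v Q R * S' v Q R = r' v Q R ^ 2 - q' v Q R ^ 3 := by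
  have hS : S' v Q R * u = R ^ 2 - Q ^ 3 := by
    unfold S'; linear_combination (R ^ 2 - Q ^ 3) * h
  have hR : R = r' v Q R + S' v Q R ^ 3 := by unfold r'; ring
  have hQ : Q = q' v Q R + S' v Q R ^ 2 := by unfold q'; ring
  generalize hs : S' v Q R = s at *
  generalize hr : r' v Q R = r at *
  generalize hq : q' v Q R = q at *
  unfold x'
  rw [hs, hr, hq]
  rw [hR, hQ] at hS
  linear_combination hS

/-- abstract identities with `α = -b r`, `β = a r` where `a x + b q = 1`, `xs = r² - q³`. -/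
def γ (x q r s a b : S) : S :=
  (a ^ 2 * x + 2 * a * b * q) * (b ^ 2 * r ^ 2 - q) +
    b ^ 2 * (s - x * a ^ 2 * r ^ 2 - 2 * q * a * b * r ^ 2)

theorem γ_x {x q r s a b : S} (h : x * s = r ^ 2 - q ^ 3) (h1 : a * x + b * q = 1) :
    x * γ x q r s a b = b ^ 2 * r ^ 2 - q := by
  unfold γ
  linear_combination b ^ 2 * h + (b ^ 2 * r ^ 2 - q - b ^ 2 * r ^ 2) * (a * x + b * q + 1) * h1

theorem γ_q {x q r s a b : S} (h : x * s = r ^ 2 - q ^ 3) (h1 : a * x + b * q = 1) :
    q ^ 2 * γ x q r s a b = s - x * a ^ 2 * r ^ 2 - 2 * q * a * b * r ^ 2 := by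
  unfold γ
  linear_combination (-(a * (1 + b * q))) * h +
    (a * (1 + b * q) * r ^ 2 * (a * x + b * q + 1) + q ^ 2 * a * (b ^ 2 * r ^ 2 - q) +
      (b * q + 1) * (s - x * a ^ 2 * r ^ 2 - 2 * q * a * b * r ^ 2)) * h1

def yf (x r b T : S) : S := x * T - b * r
def wf (q r a T : S) : S := q * T + a * r
def zf (x q r s a b T : S) : S := x * T ^ 2 - 2 * b * r * T + γ x q r s a b

theorem par_q {x q r s a b : S} (T : S) (h : x * s = r ^ 2 - q ^ 3) (h1 : a * x + b * q = 1) :
    qf x (yf x r b T) (zf x q r s a b T) = q := by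
  have := γ_x h h1
  unfold qf yf zf
  linear_combination -this

theorem par_r {x q r s a b : S} (T : S) (h : x * s = r ^ 2 - q ^ 3) (h1 : a * x + b * q = 1) :
    rf x (yf x r b T) (zf x q r s a b T) (wf q r a T) = r := by
  unfold rf
  rw [par_q T h h1]
  unfold wf yf
  linear_combination r * h1

theorem par_s {x q r s a b : S} (T : S) (h : x * s = r ^ 2 - q ^ 3) (h1 : a * x + b * q = 1) :
    sf x (yf x r b T) (zf x q r s a b T) (wf q r a T) = s := by
  unfold sf
  rw [par_q T h h1]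
  have := γ_q h h1
  unfold wf yf zf
  linear_combination this

theorem par_T {x q r a b : S} (T : S) (h1 : a * x + b * q = 1) :
    a * yf x r b T + b * wf q r a T = T := by
  unfold wf yf
  linear_combination T * h1

theorem rec_y {x y z w a b : S} (h1 : a * x + b * qf x y z = 1) :
    yf x (rf x y z w) b (a * y + b * w) = y := by
  unfold yf rf
  linear_combination y * h1

theorem rec_w {x y z w a b : S} (h1 : a * x + b * qf x y z = 1) :
    wf (qf x y z) (rf x y z w) a (a * y + b * w) = w := by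
  unfold wf rf
  linear_combination w * h1

theorem rec_z {x y z w a b : S} (h1 : a * x + b * qf x y z = 1) :
    zf x (qf x y z) (rf x y z w) (sf x y z w) a b (a * y + b * w) = z := by
  have hy := rec_y (w := w) h1
  have hw := rec_w (w := w) h1
  have hrel := rel x y z w
  have e1 : x * γ x (qf x y z) (rf x y z w) (sf x y z w) a b =
      b ^ 2 * rf x y z w ^ 2 - qf x y z := γ_x hrel h1
  have e2 := γ_q hrel h1
  generalize hq : qf x y z = q at *
  generalize hr : rf x y z w = r at *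
  generalize hs : sf x y z w = s at *
  generalize hT : a * y + b * w = T at *
  unfold yf at hy
  unfold wf at hw
  unfold zf
  have hq' : y ^ 2 - x * z = q := by rw [← hq]; rfl
  have hs' : x * w ^ 2 - 2 * y * q * w + z * q ^ 2 = s := by rw [← hs, ← hq]; rfl
  -- `δ := z - (x T² - 2 b r T + γ)` satisfies `x δ = 0`, `q² δ = 0`
  have d1 : x * (x * T ^ 2 - 2 * b * r * T + γ x q r s a b - z) = 0 := by
    linear_combination e1 + (y + x * T - b * r) * hy + hq'
  have d2 : q ^ 2 * (x * T ^ 2 - 2 * b * r * T + γ x q r s a b - z) = 0 := by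
    rw [← hy, ← hw] at hs'
    linear_combination e2 - hs'
  have : (x * T ^ 2 - 2 * b * r * T + γ x q r s a b - z) = 0 := by
    linear_combination (a ^ 2 * x + 2 * a * b * q) * d1 + b ^ 2 * d2 -
      (a * x + b * q + 1) * (x * T ^ 2 - 2 * b * r * T + γ x q r s a b - z) * h1
  linear_combination this

/-! ### the four coordinate functions and their inverse -/

def X0 (u v Q R : S) : S := x' u v Q R
def X1 (u v Q R T : S) : S := yf (x' u v Q R) (r' v Q R) (b' v Q R) T
def X2 (u v Q R T : S) : S :=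
  zf (x' u v Q R) (q' v Q R) (r' v Q R) (S' v Q R) (a' u v Q R) (b' v Q R) T
def X3 (u v Q R T : S) : S := wf (q' v Q R) (r' v Q R) (a' u v Q R) T

/-- `q + s²` -/
def QQ (x y z w : S) : S := qf x y z + sf x y z w ^ 2
/-- `r + s³` -/
def RR (x y z w : S) : S := rf x y z w + sf x y z w ^ 3
/-- `a y + b w` -/
def PP (x y z w : S) : S :=
  af x (qf x y z) (rf x y z w) (sf x y z w) * y + bf (qf x y z) (rf x y z w) (sf x y z w) * w

theorem ab' {u v Q R : S} (h : u * v = 1) :
    a' u v Q R * x' u v Q R + b' v Q R * q' v Q R = 1 := by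
  have h1 := F0_sq (rel' (Q := Q) (R := R) h)
  rw [F0'] at h1
  unfold a' b'
  linear_combination v ^ 2 * h1 + (u * v + 1) * h

theorem par_qf {u v Q R : S} (T : S) (h : u * v = 1) :
    qf (X0 u v Q R) (X1 u v Q R T) (X2 u v Q R T) = q' v Q R :=
  par_q T (rel' h) (ab' h)

theorem par_rf {u v Q R : S} (T : S) (h : u * v = 1) :
    rf (X0 u v Q R) (X1 u v Q R T) (X2 u v Q R T) (X3 u v Q R T) = r' v Q R :=
  par_r T (rel' h) (ab' h)

theorem par_sf {u v Q R : S} (T : S) (h : u * v = 1) :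
    sf (X0 u v Q R) (X1 u v Q R T) (X2 u v Q R T) (X3 u v Q R T) = S' v Q R :=
  par_s T (rel' h) (ab' h)

theorem par_FF {u v Q R : S} (T : S) (h : u * v = 1) :
    FF (X0 u v Q R) (X1 u v Q R T) (X2 u v Q R T) (X3 u v Q R T) = u := by
  unfold FF
  rw [par_qf T h, par_rf T h, par_sf T h]
  exact F0' u v Q R

theorem par_QQ {u v Q R : S} (T : S) (h : u * v = 1) :
    QQ (X0 u v Q R) (X1 u v Q R T) (X2 u v Q R T) (X3 u v Q R T) = Q := by
  unfold QQ
  rw [par_qf T h, par_sf T h]
  unfold q'; ring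

theorem par_RR {u v Q R : S} (T : S) (h : u * v = 1) :
    RR (X0 u v Q R) (X1 u v Q R T) (X2 u v Q R T) (X3 u v Q R T) = R := by
  unfold RR
  rw [par_rf T h, par_sf T h]
  unfold r'; ring

theorem par_PP {u v Q R : S} (T : S) (h : u * v = 1) :
    PP (X0 u v Q R) (X1 u v Q R T) (X2 u v Q R T) (X3 u v Q R T) = u ^ 2 * T := by
  have h1 := par_T (r := r' v Q R) T (ab' (Q := Q) (R := R) h)
  unfold PP
  rw [par_qf T h, par_rf T h, par_sf T h]
  unfold a' b' at h1
  have e1 : X1 u v Q R T = yf (x' u v Q R) (r' v Q R)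
      (bf (q' v Q R) (r' v Q R) (S' v Q R) * v ^ 2) T := rfl
  have e3 : X3 u v Q R T = wf (q' v Q R) (r' v Q R)
      (af (x' u v Q R) (q' v Q R) (r' v Q R) (S' v Q R) * v ^ 2) T := rfl
  rw [← e1, ← e3] at h1
  have e0 : X0 u v Q R = x' u v Q R := rfl
  rw [e0]
  generalize af (x' u v Q R) (q' v Q R) (r' v Q R) (S' v Q R) = A at *
  generalize bf (q' v Q R) (r' v Q R) (S' v Q R) = B at *
  generalize X1 u v Q R T = Y at *
  generalize X3 u v Q R T = W at *
  linear_combination u ^ 2 * h1 - (A * Y + B * W) * (u * v + 1) * h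

section rec
variable {x y z w v : S}

theorem rec_S (h : FF x y z w * v = 1) : S' v (QQ x y z w) (RR x y z w) = sf x y z w := by
  have h1 := sF0 (rel x y z w)
  have h2 : (RR x y z w) ^ 2 - (QQ x y z w) ^ 3 = sf x y z w * FF x y z w := h1
  unfold S'
  rw [h2]
  linear_combination sf x y z w * h

theorem rec_q' (h : FF x y z w * v = 1) : q' v (QQ x y z w) (RR x y z w) = qf x y z := by
  unfold q'
  rw [rec_S h]
  unfold QQ; ring

theorem rec_r' (h : FF x y z w * v = 1) : r' v (QQ x y z w) (RR x y z w) = rf x y z w := by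
  unfold r'
  rw [rec_S h]
  unfold RR; ring

theorem rec_x' (h : FF x y z w * v = 1) :
    x' (FF x y z w) v (QQ x y z w) (RR x y z w) = x := by
  unfold x'
  rw [rec_S h, rec_q' h, rec_r' h]
  unfold FF F0; ring

theorem rec_ab (h : FF x y z w * v = 1) :
    (af x (qf x y z) (rf x y z w) (sf x y z w) * v ^ 2) * x +
      (bf (qf x y z) (rf x y z w) (sf x y z w) * v ^ 2) * qf x y z = 1 := by
  have h1 : _ = FF x y z w ^ 2 := F0_sq (rel x y z w)
  linear_combination v ^ 2 * h1 + (FF x y z w * v + 1) * h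

theorem rec_T : PP x y z w * v ^ 2 =
    (af x (qf x y z) (rf x y z w) (sf x y z w) * v ^ 2) * y +
      (bf (qf x y z) (rf x y z w) (sf x y z w) * v ^ 2) * w := by
  unfold PP; ring

theorem rec_X0 (h : FF x y z w * v = 1) :
    X0 (FF x y z w) v (QQ x y z w) (RR x y z w) = x := rec_x' h

theorem rec_X1 (h : FF x y z w * v = 1) :
    X1 (FF x y z w) v (QQ x y z w) (RR x y z w) (PP x y z w * v ^ 2) = y := by
  unfold X1 b'
  rw [rec_x' h, rec_r' h, rec_q' h, rec_S h, rec_T]
  exact rec_y (rec_ab h)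

theorem rec_X2 (h : FF x y z w * v = 1) :
    X2 (FF x y z w) v (QQ x y z w) (RR x y z w) (PP x y z w * v ^ 2) = z := by
  unfold X2 a' b'
  rw [rec_x' h, rec_r' h, rec_q' h, rec_S h, rec_T]
  exact rec_z (rec_ab h)

theorem rec_X3 (h : FF x y z w * v = 1) :
    X3 (FF x y z w) v (QQ x y z w) (RR x y z w) (PP x y z w * v ^ 2) = w := by
  unfold X3 a'
  rw [rec_x' h, rec_r' h, rec_q' h, rec_S h, rec_T]
  exact rec_w (rec_ab h)

end rec

end

/-! ### naturality -/

section map
variable {S₁ S₂ : Type*} [CommRing S₁] [CommRing S₂] (f : S₁ →+* S₂)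

theorem map_qf (x y z : S₁) : f (qf x y z) = qf (f x) (f y) (f z) := by simp [map_ofNat, qf]

theorem map_rf (x y z w : S₁) : f (rf x y z w) = rf (f x) (f y) (f z) (f w) := by
  simp [map_ofNat, rf, map_qf]

theorem map_sf (x y z w : S₁) : f (sf x y z w) = sf (f x) (f y) (f z) (f w) := by
  simp [map_ofNat, sf, map_qf]

theorem map_FF (x y z w : S₁) : f (FF x y z w) = FF (f x) (f y) (f z) (f w) := by
  simp [map_ofNat, FF, F0, map_qf, map_rf, map_sf]

theorem map_QQ (x y z w : S₁) : f (QQ x y z w) = QQ (f x) (f y) (f z) (f w) := by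
  simp [map_ofNat, QQ, map_qf, map_sf]

theorem map_RR (x y z w : S₁) : f (RR x y z w) = RR (f x) (f y) (f z) (f w) := by
  simp [map_ofNat, RR, map_rf, map_sf]

theorem map_PP (x y z w : S₁) : f (PP x y z w) = PP (f x) (f y) (f z) (f w) := by
  simp [map_ofNat, PP, af, bf, mf, map_rf, map_sf, map_qf]

theorem map_X0 (u v Q R : S₁) : f (X0 u v Q R) = X0 (f u) (f v) (f Q) (f R) := by
  simp [map_ofNat, X0, x', q', r', S']

theorem map_X1 (u v Q R T : S₁) : f (X1 u v Q R T) = X1 (f u) (f v) (f Q) (f R) (f T) := by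
  simp [map_ofNat, X1, yf, x', q', r', S', b', bf, mf]

theorem map_X3 (u v Q R T : S₁) : f (X3 u v Q R T) = X3 (f u) (f v) (f Q) (f R) (f T) := by
  simp [map_ofNat, X3, wf, x', q', r', S', a', af, mf]

theorem map_X2 (u v Q R T : S₁) : f (X2 u v Q R T) = X2 (f u) (f v) (f Q) (f R) (f T) := by
  simp [map_ofNat, X2, zf, γ, x', q', r', S', a', af, mf, b', bf]

end map

end Crest.Agent.AbSath
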