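import Mathlib
import Crest.Agent.AbSath.Basic

/-! Row 268: critical points. -/

set_option autoImplicit false

namespace Crest.Agent.AbSath

open MvPolynomial

variable {σ : Type} [Fintype σ] [DecidableEq σ]

/-- conjugate of a derivation by an automorphism -/
noncomputable def conjD (τ : MvPolynomial σ ℂ ≃ₐ[ℂ] MvPolynomial σ ℂ)
    (D : Derivation ℂ (MvPolynomial σ ℂ) (MvPolynomial σ ℂ)) :
    Derivation ℂ (MvPolynomial σ ℂ) (MvPolynomial σ ℂ) :=
  Derivation.mk' (τ.symm.toLinearMap ∘ₗ D.toLinearMap ∘ₗ τ.toLinearMap) (by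
    intro a b
    simp [Derivation.leibniz])

theorem conjD_apply (τ : MvPolynomial σ ℂ ≃ₐ[ℂ] MvPolynomial σ ℂ)
    (D : Derivation ℂ (MvPolynomial σ ℂ) (MvPolynomial σ ℂ)) (f : MvPolynomial σ ℂ) :
    conjD τ D f = τ.symm (D (τ f)) := rfl

theorem der_sum_apply {R A M ι : Type*} [CommSemiring R] [CommSemiring A] [AddCommMonoid M]
    [Algebra R A] [Module A M] [Module R M] (s : Finset ι) (D : ι → Derivation R A M) (x : A) :
    (∑ i ∈ s, D i) x = ∑ i ∈ s, D i x := by
  classical
  induction s using Finset.induction_on with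
  | empty => simp
  | insert a s ha ih => rw [Finset.sum_insert ha, Finset.sum_insert ha, Derivation.add_apply, ih]

theorem der_eq_sum (D : Derivation ℂ (MvPolynomial σ ℂ) (MvPolynomial σ ℂ)) :
    D = ∑ i : σ, D (X i) • pderiv i := by
  apply MvPolynomial.derivation_ext
  intro j
  rw [der_sum_apply, Finset.sum_eq_single j]
  · simp
  · intro b _ hb
    simp [pderiv_X_of_ne hb.symm]
  · simp

theorem no_coord (g : MvPolynomial σ ℂ) (p : σ → ℂ) (h : ∀ i, eval p (pderiv i g) = 0) (j : σ) :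
    ¬ ∃ τ : MvPolynomial σ ℂ ≃ₐ[ℂ] MvPolynomial σ ℂ, τ g = X j := by
  rintro ⟨τ, hτ⟩
  have h1 : conjD τ (pderiv j) g = 1 := by
    rw [conjD_apply, hτ]; simp
  have h2 : eval p (conjD τ (pderiv j) g) = 0 := by
    rw [der_eq_sum (conjD τ (pderiv j)), der_sum_apply, map_sum]
    apply Finset.sum_eq_zero
    intro i _
    simp [h i]
  rw [h1] at h2
  simp at h2

end Crest.Agent.AbSath
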