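import Mathlib
import Crest.Agent.AbSath.Basic
import Crest.Agent.AbSath.Crit

/-! Row 268: the embedding `Φ : A → Λ[Q,R,T,...]`, `Λ = ℂ[u, 1/u]`. -/

set_option autoImplicit false

namespace Crest.Agent.AbSath.Der

open MvPolynomial Crest.Agent.AbSath

/-! ### generalities on `pderiv` -/

section gen
variable {σ R : Type*} [CommRing R]

theorem pderiv_comm (a b : σ) (f : MvPolynomial σ R) :
    pderiv a (pderiv b f) = pderiv b (pderiv a f) := by
  classical
  have h : ⁅(pderiv a : Derivation R (MvPolynomial σ R) (MvPolynomial σ R)),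
      (pderiv b : Derivation R (MvPolynomial σ R) (MvPolynomial σ R))⁆ = 0 := by
    apply MvPolynomial.derivation_ext
    intro i
    rw [Derivation.commutator_apply, pderiv_X, pderiv_X]
    simp only [Pi.single_apply, Derivation.coe_zero, Pi.zero_apply]
    split_ifs <;> simp
  have h2 := congrArg (fun D => D f) h
  simp only [Derivation.commutator_apply, Derivation.coe_zero, Pi.zero_apply] at h2
  exact sub_eq_zero.1 h2

theorem iter_zero (a : σ) (k : ℕ) : (pderiv a : Derivation R (MvPolynomial σ R) _)^[k] 0 = 0 := by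
  induction k with
  | zero => rfl
  | succ k ih => rw [Function.iterate_succ_apply, map_zero, ih]

theorem iter_add (a : σ) (k : ℕ) (f g : MvPolynomial σ R) :
    (pderiv a : Derivation R (MvPolynomial σ R) _)^[k] (f + g) =
      (pderiv a : Derivation R (MvPolynomial σ R) _)^[k] f +
      (pderiv a : Derivation R (MvPolynomial σ R) _)^[k] g := by
  induction k generalizing f g with
  | zero => rfl
  | succ k ih => rw [Function.iterate_succ_apply, map_add, ih]; rfl

theorem iter_mul_C (a : σ) (k : ℕ) (f : MvPolynomial σ R) (c : R) :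
    (pderiv a : Derivation R (MvPolynomial σ R) _)^[k] (f * C c) =
      (pderiv a : Derivation R (MvPolynomial σ R) _)^[k] f * C c := by
  induction k generalizing f with
  | zero => rfl
  | succ k ih =>
    rw [Function.iterate_succ_apply, Function.iterate_succ_apply, mul_comm f, pderiv_C_mul,
      mul_comm (C c), ih]

theorem iter_mul_X (a i : σ) (k : ℕ) (f : MvPolynomial σ R)
    (h : (pderiv a : Derivation R (MvPolynomial σ R) _)^[k] f = 0) :
    (pderiv a : Derivation R (MvPolynomial σ R) _)^[k + 1] (f * X i) = 0 := by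
  classical
  induction k generalizing f with
  | zero =>
    have : f = 0 := h
    rw [this, zero_mul, iter_zero]
  | succ k ih =>
    rw [Function.iterate_succ_apply, pderiv_mul, iter_add]
    rw [ih (pderiv a f) (by rw [← Function.iterate_succ_apply]; exact h), zero_add]
    have : (pderiv a (X i : MvPolynomial σ R)) = C (if a = i then 1 else 0) := by
      by_cases e : a = i
      · subst e; simp
      · rw [pderiv_X_of_ne (Ne.symm e)]; simp [e]
    rw [this, iter_mul_C, h, zero_mul]

theorem iter_succ_zero (a : σ) (k : ℕ) (f : MvPolynomial σ R)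
    (h : (pderiv a : Derivation R (MvPolynomial σ R) _)^[k] f = 0) :
    (pderiv a : Derivation R (MvPolynomial σ R) _)^[k + 1] f = 0 := by
  rw [Function.iterate_succ_apply', h, map_zero]

theorem iter_le_zero (a : σ) (k l : ℕ) (hkl : k ≤ l) (f : MvPolynomial σ R)
    (h : (pderiv a : Derivation R (MvPolynomial σ R) _)^[k] f = 0) :
    (pderiv a : Derivation R (MvPolynomial σ R) _)^[l] f = 0 := by
  induction l, hkl using Nat.le_induction with
  | base => exact h
  | succ l _ ih => exact iter_succ_zero a l f ih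

theorem loc_nil (a : σ) (f : MvPolynomial σ R) :
    ∃ k, (pderiv a : Derivation R (MvPolynomial σ R) _)^[k] f = 0 := by
  induction f using MvPolynomial.induction_on with
  | C c => exact ⟨1, by simp⟩
  | add f g hf hg =>
    obtain ⟨k, hk⟩ := hf
    obtain ⟨l, hl⟩ := hg
    refine ⟨max k l, ?_⟩
    rw [iter_add, iter_le_zero a k _ (le_max_left _ _) f hk,
      iter_le_zero a l _ (le_max_right _ _) g hl, add_zero]
  | mul_X f i hf =>
    obtain ⟨k, hk⟩ := hf
    exact ⟨k + 1, iter_mul_X a i k f hk⟩

theorem const_of_pderiv [Algebra ℂ R] (f : MvPolynomial σ R) (h : ∀ a, pderiv a f = 0) :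
    f = C (coeff 0 f) := by
  classical
  ext s
  rw [coeff_C]
  split_ifs with hs
  · rw [← hs]
  · have : ∃ a, s a ≠ 0 := by
      by_contra hne
      push Not at hne
      apply hs
      ext a
      simp [hne a]
    obtain ⟨a, ha⟩ := this
    obtain ⟨t, ht⟩ : ∃ t : σ →₀ ℕ, t + Finsupp.single a 1 = s := by
      refine ⟨s - Finsupp.single a 1, ?_⟩
      ext b
      by_cases hb : b = a
      · subst hb
        simp only [Finsupp.coe_add, Finsupp.coe_tsub, Pi.add_apply, Pi.sub_apply,
          Finsupp.single_eq_same]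
        omega
      · simp [Finsupp.single_eq_of_ne hb]
    have h1 := congrArg (coeff t) (h a)
    rw [coeff_pderiv, coeff_zero, ht] at h1
    have h3 : ((t a : ℕ) : R) + 1 = algebraMap ℂ R ((t a : ℂ) + 1) := by simp
    rw [h3] at h1
    have h4 : ((t a : ℂ) + 1) ≠ 0 := by
      exact Nat.cast_add_one_ne_zero _
    calc coeff s f = coeff s f * algebraMap ℂ R ((t a : ℂ) + 1) *
          algebraMap ℂ R ((t a : ℂ) + 1)⁻¹ := by
            rw [mul_assoc, ← map_mul, mul_inv_cancel₀ h4, map_one, mul_one]
      _ = 0 := by rw [h1, zero_mul]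

end gen

/-! ### derivations vanishing on the parameters -/

section der
variable {k S : Type*} [CommRing k] [CommRing S] [Algebra k S] (d : Derivation k S S)

theorem d2 : d (2 : S) = 0 := by simpa using d.map_natCast 2
theorem d3 : d (3 : S) = 0 := by simpa using d.map_natCast 3
theorem d4 : d (4 : S) = 0 := by simpa using d.map_natCast 4

variable {u v Q R T : S} (hu : d u = 0) (hv : d v = 0) (hQ : d Q = 0) (hR : d R = 0) (hT : d T = 0)
include hu hv hQ hR

theorem d_X0 : d (X0 u v Q R) = 0 := by
  simp [X0, x', q', r', S', Derivation.leibniz, Derivation.leibniz_pow, hu, hv, hQ, hR, d2, d3]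

theorem d_S' : d (S' v Q R) = 0 := by
  simp [S', Derivation.leibniz, Derivation.leibniz_pow, hv, hQ, hR]

theorem d_q' : d (q' v Q R) = 0 := by
  simp [q', Derivation.leibniz_pow, hQ, d_S' d hu hv hQ hR]

theorem d_r' : d (r' v Q R) = 0 := by
  simp [r', Derivation.leibniz_pow, hR, d_S' d hu hv hQ hR]

theorem d_x' : d (x' u v Q R) = 0 := d_X0 d hu hv hQ hR

theorem d_m' : d (mf (q' v Q R) (S' v Q R)) = 0 := by
  simp [mf, Derivation.leibniz, Derivation.leibniz_pow, d_S' d hu hv hQ hR, d_q' d hu hv hQ hR, d3]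

theorem d_a' : d (a' u v Q R) = 0 := by
  simp [a', af, Derivation.leibniz, Derivation.leibniz_pow, d_S' d hu hv hQ hR,
    d_q' d hu hv hQ hR, d_r' d hu hv hQ hR, d_x' d hu hv hQ hR, d_m' d hu hv hQ hR, d2, d4, hv]

theorem d_b' : d (b' v Q R) = 0 := by
  simp [b', bf, Derivation.leibniz, Derivation.leibniz_pow, d_S' d hu hv hQ hR,
    d_q' d hu hv hQ hR, d_r' d hu hv hQ hR, d_m' d hu hv hQ hR, d4, hv]

include hT

theorem d_X1 : d (X1 u v Q R T) = 0 := by
  simp [X1, yf, Derivation.leibniz, d_r' d hu hv hQ hR, d_x' d hu hv hQ hR, d_b' d hu hv hQ hR, hT]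

theorem d_X3 : d (X3 u v Q R T) = 0 := by
  simp [X3, wf, Derivation.leibniz, d_r' d hu hv hQ hR, d_q' d hu hv hQ hR, d_a' d hu hv hQ hR, hT]

theorem d_X2 : d (X2 u v Q R T) = 0 := by
  simp [X2, zf, γ, Derivation.leibniz, Derivation.leibniz_pow, d_r' d hu hv hQ hR,
    d_q' d hu hv hQ hR, d_a' d hu hv hQ hR, d_b' d hu hv hQ hR, d_x' d hu hv hQ hR,
    d_S' d hu hv hQ hR, hT, d2]

end der

end Crest.Agent.AbSath.Der
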