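import Mathlib
import Crest.Agent.AbSath.Loc

/-! Row 268: the embedding `Φ : A → Λ[Q,R,T,...]`, `Λ = ℂ[u, 1/u]`. -/

set_option autoImplicit false

namespace Crest.Agent.AbSath.Der

open MvPolynomial Crest.Agent.AbSath

abbrev Λ := Localization.Away (Polynomial.X : Polynomial ℂ)

noncomputable def uΛ : Λ := algebraMap (Polynomial ℂ) Λ Polynomial.X
noncomputable def vΛ : Λ := IsLocalization.Away.invSelf (Polynomial.X : Polynomial ℂ)

theorem uv : uΛ * vΛ = 1 := IsLocalization.Away.mul_invSelf (Polynomial.X : Polynomial ℂ)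

abbrev L (m : ℕ) := MvPolynomial (Fin 3 ⊕ Fin m) Λ
abbrev A (m : ℕ) := MvPolynomial (Fin (4 + m)) ℂ

variable (m : ℕ)

noncomputable def U : L m := C uΛ
noncomputable def V : L m := C vΛ

theorem UV : U m * V m = 1 := by
  unfold U V
  rw [← C_mul, uv, C_1]

noncomputable def xx (i : Fin 4) : A m := X (Fin.castAdd m i)

noncomputable def FA : A m := FF (xx m 0) (xx m 1) (xx m 2) (xx m 3)
noncomputable def QA : A m := QQ (xx m 0) (xx m 1) (xx m 2) (xx m 3)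
noncomputable def RA : A m := RR (xx m 0) (xx m 1) (xx m 2) (xx m 3)
noncomputable def PA : A m := PP (xx m 0) (xx m 1) (xx m 2) (xx m 3)

noncomputable def Φ0 : Fin 4 → L m :=
  ![AbSath.X0 (U m) (V m) (X (Sum.inl 0)) (X (Sum.inl 1)),
    AbSath.X1 (U m) (V m) (X (Sum.inl 0)) (X (Sum.inl 1)) (X (Sum.inl 2)),
    AbSath.X2 (U m) (V m) (X (Sum.inl 0)) (X (Sum.inl 1)) (X (Sum.inl 2)),
    AbSath.X3 (U m) (V m) (X (Sum.inl 0)) (X (Sum.inl 1)) (X (Sum.inl 2))]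

noncomputable def Φ : A m →ₐ[ℂ] L m :=
  aeval (Fin.addCases (Φ0 m) (fun j => X (Sum.inr j)))

theorem Φ_xx (i : Fin 4) : Φ m (xx m i) = Φ0 m i := by
  unfold Φ xx
  rw [aeval_X, Fin.addCases_left]

theorem Φ_X (j : Fin m) : Φ m (X (Fin.natAdd 4 j)) = X (Sum.inr j) := by
  unfold Φ
  rw [aeval_X, Fin.addCases_right]

theorem Φ_FA : Φ m (FA m) = U m := by
  have e := AbSath.map_FF (Φ m : A m →+* L m) (xx m 0) (xx m 1) (xx m 2) (xx m 3)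
  have h := AbSath.par_FF (Q := (X (Sum.inl 0) : L m)) (R := X (Sum.inl 1)) (X (Sum.inl 2)) (UV m)
  refine Eq.trans e (Eq.trans ?_ h)
  simp only [RingHom.coe_coe, Φ_xx]
  rfl

theorem Φ_QA : Φ m (QA m) = X (Sum.inl 0) := by
  have e := AbSath.map_QQ (Φ m : A m →+* L m) (xx m 0) (xx m 1) (xx m 2) (xx m 3)
  have h := AbSath.par_QQ (Q := (X (Sum.inl 0) : L m)) (R := X (Sum.inl 1)) (X (Sum.inl 2)) (UV m)
  refine Eq.trans e (Eq.trans ?_ h)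
  simp only [RingHom.coe_coe, Φ_xx]
  rfl

theorem Φ_RA : Φ m (RA m) = X (Sum.inl 1) := by
  have e := AbSath.map_RR (Φ m : A m →+* L m) (xx m 0) (xx m 1) (xx m 2) (xx m 3)
  have h := AbSath.par_RR (Q := (X (Sum.inl 0) : L m)) (R := X (Sum.inl 1)) (X (Sum.inl 2)) (UV m)
  refine Eq.trans e (Eq.trans ?_ h)
  simp only [RingHom.coe_coe, Φ_xx]
  rfl

theorem Φ_PA : Φ m (PA m) = U m ^ 2 * X (Sum.inl 2) := by
  have e := AbSath.map_PP (Φ m : A m →+* L m) (xx m 0) (xx m 1) (xx m 2) (xx m 3)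
  have h := AbSath.par_PP (Q := (X (Sum.inl 0) : L m)) (R := X (Sum.inl 1)) (X (Sum.inl 2)) (UV m)
  refine Eq.trans e (Eq.trans ?_ h)
  simp only [RingHom.coe_coe, Φ_xx]
  rfl

theorem FA_ne : FA m ≠ 0 := by
  intro h
  have h1 := congrArg (MvPolynomial.eval (fun i : Fin (4 + m) => if i = Fin.castAdd m 0 then (1 : ℂ) else 0)) h
  have e := AbSath.map_FF (MvPolynomial.eval (fun i : Fin (4 + m) => if i = Fin.castAdd m 0 then (1 : ℂ) else 0))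
    (xx m 0) (xx m 1) (xx m 2) (xx m 3)
  unfold FA at h1
  rw [e] at h1
  simp [xx, FF, F0, qf, rf, sf] at h1

/-! ### injectivity -/

abbrev K := FractionRing (A m)

noncomputable def ι : A m →ₐ[ℂ] K m := IsScalarTower.toAlgHom ℂ (A m) (K m)

theorem ι_inj : Function.Injective (ι m) := IsFractionRing.injective (A m) (K m)

theorem ιFA_unit : IsUnit ((Polynomial.aeval (ι m (FA m)) : Polynomial ℂ →ₐ[ℂ] K m) Polynomial.X) := by
  rw [Polynomial.aeval_X, isUnit_iff_ne_zero]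
  intro h
  exact FA_ne m (ι_inj m (by rw [h, map_zero]))

noncomputable def lΛ : Λ →ₐ[ℂ] K m :=
  IsLocalization.Away.liftAlgHom (Polynomial.X : Polynomial ℂ) (ιFA_unit m)

theorem lΛ_u : lΛ m uΛ = ι m (FA m) := by
  unfold lΛ uΛ
  rw [IsLocalization.Away.liftAlgHom_apply, IsLocalization.Away.lift_eq]
  simp

theorem lΛ_v : ι m (FA m) * lΛ m vΛ = 1 := by
  rw [← lΛ_u, ← map_mul, uv, map_one]

noncomputable def Ψ : L m →ₐ[ℂ] K m :=
  aevalTower (lΛ m) (Sum.elim ![ι m (QA m), ι m (RA m), ι m (PA m) * lΛ m vΛ ^ 2]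
    (fun j => ι m (X (Fin.natAdd 4 j))))

theorem Ψ_U : Ψ m (U m) = ι m (FA m) := by
  unfold Ψ U
  rw [aevalTower_C, lΛ_u]

theorem Ψ_V : Ψ m (V m) = lΛ m vΛ := by
  unfold Ψ V
  rw [aevalTower_C]

theorem Ψ_0 : Ψ m (X (Sum.inl 0)) = ι m (QA m) := by
  unfold Ψ; rw [aevalTower_X]; rfl
theorem Ψ_1 : Ψ m (X (Sum.inl 1)) = ι m (RA m) := by
  unfold Ψ; rw [aevalTower_X]; rfl
theorem Ψ_2 : Ψ m (X (Sum.inl 2)) = ι m (PA m) * lΛ m vΛ ^ 2 := by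
  unfold Ψ; rw [aevalTower_X]; rfl
theorem Ψ_r (j : Fin m) : Ψ m (X (Sum.inr j)) = ι m (X (Fin.natAdd 4 j)) := by
  unfold Ψ; rw [aevalTower_X]; rfl

theorem ι_FF : ι m (FA m) = FF (ι m (xx m 0)) (ι m (xx m 1)) (ι m (xx m 2)) (ι m (xx m 3)) :=
  AbSath.map_FF (ι m : A m →+* K m) _ _ _ _
theorem ι_QQ : ι m (QA m) = QQ (ι m (xx m 0)) (ι m (xx m 1)) (ι m (xx m 2)) (ι m (xx m 3)) :=
  AbSath.map_QQ (ι m : A m →+* K m) _ _ _ _
theorem ι_RR : ι m (RA m) = RR (ι m (xx m 0)) (ι m (xx m 1)) (ι m (xx m 2)) (ι m (xx m 3)) :=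
  AbSath.map_RR (ι m : A m →+* K m) _ _ _ _
theorem ι_PP : ι m (PA m) = PP (ι m (xx m 0)) (ι m (xx m 1)) (ι m (xx m 2)) (ι m (xx m 3)) :=
  AbSath.map_PP (ι m : A m →+* K m) _ _ _ _

theorem ΨΦ_xx (i : Fin 4) : Ψ m (Φ m (xx m i)) = ι m (xx m i) := by
  have hv := lΛ_v m
  rw [ι_FF] at hv
  rw [Φ_xx]
  fin_cases i
  · change Ψ m (AbSath.X0 (U m) (V m) (X (Sum.inl 0)) (X (Sum.inl 1))) = ι m (xx m 0)
    refine Eq.trans (AbSath.map_X0 (Ψ m : L m →+* K m) _ _ _ _) ?_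
    simp only [RingHom.coe_coe, Ψ_U, Ψ_V, Ψ_0, Ψ_1]
    rw [ι_FF, ι_QQ, ι_RR]
    exact AbSath.rec_X0 hv
  · change Ψ m (AbSath.X1 (U m) (V m) (X (Sum.inl 0)) (X (Sum.inl 1)) (X (Sum.inl 2))) = ι m (xx m 1)
    refine Eq.trans (AbSath.map_X1 (Ψ m : L m →+* K m) _ _ _ _ _) ?_
    simp only [RingHom.coe_coe, Ψ_U, Ψ_V, Ψ_0, Ψ_1, Ψ_2]
    rw [ι_FF, ι_QQ, ι_RR, ι_PP]
    exact AbSath.rec_X1 hv
  · change Ψ m (AbSath.X2 (U m) (V m) (X (Sum.inl 0)) (X (Sum.inl 1)) (X (Sum.inl 2))) = ι m (xx m 2)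
    refine Eq.trans (AbSath.map_X2 (Ψ m : L m →+* K m) _ _ _ _ _) ?_
    simp only [RingHom.coe_coe, Ψ_U, Ψ_V, Ψ_0, Ψ_1, Ψ_2]
    rw [ι_FF, ι_QQ, ι_RR, ι_PP]
    exact AbSath.rec_X2 hv
  · change Ψ m (AbSath.X3 (U m) (V m) (X (Sum.inl 0)) (X (Sum.inl 1)) (X (Sum.inl 2))) = ι m (xx m 3)
    refine Eq.trans (AbSath.map_X3 (Ψ m : L m →+* K m) _ _ _ _ _) ?_
    simp only [RingHom.coe_coe, Ψ_U, Ψ_V, Ψ_0, Ψ_1, Ψ_2]
    rw [ι_FF, ι_QQ, ι_RR, ι_PP]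
    exact AbSath.rec_X3 hv

theorem ΨΦ : (Ψ m).comp (Φ m) = ι m := by
  apply MvPolynomial.algHom_ext
  intro i
  refine Fin.addCases (fun i => ?_) (fun j => ?_) i
  · exact ΨΦ_xx m i
  · rw [AlgHom.comp_apply, Φ_X, Ψ_r]

theorem Φ_inj : Function.Injective (Φ m) := by
  intro a b h
  apply ι_inj m
  rw [← ΨΦ, AlgHom.comp_apply, AlgHom.comp_apply, h]

/-! ### every element of `L` is `U^{-k} Φ(e)` -/

theorem Φ_aeval (h : Polynomial ℂ) :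
    Φ m (Polynomial.aeval (FA m) h) = C (algebraMap (Polynomial ℂ) Λ h) := by
  have e : ((Φ m).comp (Polynomial.aeval (FA m))) =
      (IsScalarTower.toAlgHom ℂ Λ (L m)).comp (IsScalarTower.toAlgHom ℂ (Polynomial ℂ) Λ) := by
    apply Polynomial.algHom_ext
    rw [AlgHom.comp_apply, Polynomial.aeval_X, Φ_FA]
    rfl
  exact congrArg (fun f => f h) e

theorem gen (i : Fin 3 ⊕ Fin m) : ∃ (k : ℕ) (e : A m), U m ^ k * X i = Φ m e := by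
  rcases i with i | j
  · fin_cases i
    · exact ⟨0, QA m, by rw [Φ_QA, pow_zero, one_mul]; rfl⟩
    · exact ⟨0, RA m, by rw [Φ_RA, pow_zero, one_mul]; rfl⟩
    · exact ⟨2, PA m, by rw [Φ_PA]; rfl⟩
  · exact ⟨0, X (Fin.natAdd 4 j), by rw [Φ_X, pow_zero, one_mul]⟩

theorem dense (f : L m) : ∃ (k : ℕ) (e : A m), U m ^ k * f = Φ m e := by
  induction f using MvPolynomial.induction_on with
  | C c =>
    obtain ⟨n, a, h⟩ := IsLocalization.Away.surj (Polynomial.X : Polynomial ℂ) c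
    refine ⟨n, Polynomial.aeval (FA m) a, ?_⟩
    rw [Φ_aeval, ← h]
    unfold U uΛ
    rw [← C_pow, ← C_mul, mul_comm]
  | add f g hf hg =>
    obtain ⟨k, e, h⟩ := hf
    obtain ⟨l, e', h'⟩ := hg
    refine ⟨k + l, FA m ^ l * e + FA m ^ k * e', ?_⟩
    rw [map_add, map_mul, map_mul, map_pow, map_pow, Φ_FA, ← h, ← h']
    ring
  | mul_X f i hf =>
    obtain ⟨k, e, h⟩ := hf
    obtain ⟨l, e', h'⟩ := gen m i
    refine ⟨k + l, e * e', ?_⟩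
    rw [map_mul, ← h, ← h']
    ring

end Crest.Agent.AbSath.Der
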